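import Mathlib
import Crest.Prelude.Def_AsymptoticConvexity

/-!
Shared library for row 125 (S0166–S0169), written by helper30.

Generic (instance-based) versions of the notions of `Def_AsymptoticConvexity` and the
general lemmas K1–K7 of `notes/row125_plan.md`:

* `IsCofSet`, `IsEquivNormOn`, `IsAUCOn`, `WeaklyNull`;
* `isCofSet_ker` (K1), `eventually_exists_mem_sub_lt` (K2), `auc_seq` (K3),
  `no_auc_of_bush` (K4), `no_auc_of_trees` (K5), `weaklyNull_of_sign_sums` (K6),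
  `not_finiteDimensional_of_weaklyNull` (K7).
-/

set_option autoImplicit false

open Filter Topology

namespace Crest.Agent.Helper30

section Defs

variable (X : Type*) [NormedAddCommGroup X] [NormedSpace ℝ X]

/-- `F` is (the carrier of) a closed linear subspace of finite codimension. -/
def IsCofSet (F : Set X) : Prop :=
  ∃ S : Submodule ℝ X, (S : Set X) = F ∧ IsClosed F ∧ FiniteDimensional ℝ (X ⧸ S)

variable {X}

/-- A sequence is weakly null: every continuous linear functional tends to `0` along it. -/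
def WeaklyNull (w : ℕ → X) : Prop :=
  ∀ φ : X →L[ℝ] ℝ, Tendsto (fun k => φ (w k)) atTop (𝓝 0)

/-- `N` is an equivalent norm (instance-based version of `RealBanach.IsEquivNorm`). -/
def IsEquivNormOn (N : X → ℝ) : Prop :=
  (∀ x y : X, N (x + y) ≤ N x + N y) ∧ (∀ (a : ℝ) (x : X), N (a • x) = abs a * N x) ∧
    ∃ a b : ℝ, 0 < a ∧ ∀ x : X, a * ‖x‖ ≤ N x ∧ N x ≤ b * ‖x‖

/-- `N` is asymptotically uniformly convex (instance-based version of `RealBanach.IsAUC`). -/
def IsAUCOn (N : X → ℝ) : Prop :=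
  ∀ t : ℝ, 0 < t → ∃ c : ℝ, 0 < c ∧ ∀ x : X, N x = 1 → ∃ F : Set X, IsCofSet X F ∧
    ∀ y ∈ F, N y = 1 → c ≤ N (x + t • y) - 1

end Defs

/-! ### Bridges to the Prelude record -/

open Crest.AnalysisR in
theorem isCof_iff (E : RealBanach) (F : Set E.X) :
    E.IsCof F ↔ @IsCofSet E.X E.normed E.space F := Iff.rfl

open Crest.AnalysisR in
theorem isEquivNorm_iff (E : RealBanach) (N : E.X → ℝ) :
    E.IsEquivNorm N ↔ @IsEquivNormOn E.X E.normed E.space N := Iff.rfl

open Crest.AnalysisR in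
theorem isAUC_iff (E : RealBanach) (N : E.X → ℝ) :
    E.IsAUC N ↔ @IsAUCOn E.X E.normed E.space N := Iff.rfl

variable {X : Type*} [NormedAddCommGroup X] [NormedSpace ℝ X]

/-! ### K1: kernels of continuous linear maps into finite-dimensional spaces -/

theorem isCofSet_ker {V : Type*} [NormedAddCommGroup V] [NormedSpace ℝ V] [FiniteDimensional ℝ V]
    (L : X →L[ℝ] V) : IsCofSet X {x : X | L x = 0} := by
  refine ⟨LinearMap.ker (L : X →ₗ[ℝ] V), ?_, ?_, ?_⟩
  · ext x; simp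
  · exact isClosed_eq L.continuous continuous_const
  · exact (LinearMap.quotKerEquivRange (L : X →ₗ[ℝ] V)).symm.finiteDimensional

/-- the whole space is cof -/
theorem isCofSet_univ : IsCofSet X (Set.univ : Set X) := by
  have h := isCofSet_ker (0 : X →L[ℝ] ℝ)
  simpa using h

/-- finite intersections of kernels of functionals, as a pi-valued map -/
theorem isCofSet_forall_eq_zero {ι : Type*} [Fintype ι] (φ : ι → X →L[ℝ] ℝ) :
    IsCofSet X {x : X | ∀ i, φ i x = 0} := by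
  have h := isCofSet_ker (ContinuousLinearMap.pi φ)
  convert h using 2
  ext x
  simp [funext_iff]

/-! ### weak convergence in finite dimension -/

theorem WeaklyNull.smul {w : ℕ → X} (hw : WeaklyNull w) (a : ℝ) :
    WeaklyNull (fun k => a • w k) := by
  intro φ
  have := (hw φ).const_mul a
  simpa using this

theorem WeaklyNull.comp_clm {Y : Type*} [NormedAddCommGroup Y] [NormedSpace ℝ Y] {w : ℕ → X}
    (hw : WeaklyNull w) (L : X →L[ℝ] Y) : WeaklyNull (fun k => L (w k)) := by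
  intro φ
  exact hw (φ.comp L)

/-- In a finite-dimensional normed space a weakly null sequence is norm null. -/
theorem WeaklyNull.tendsto_of_finiteDimensional [FiniteDimensional ℝ X] {w : ℕ → X}
    (hw : WeaklyNull w) : Tendsto w atTop (𝓝 0) := by
  classical
  let b := Module.finBasis ℝ X
  have h1 : ∀ k, w k = ∑ i, (b.coord i) (w k) • b i := by
    intro k
    simpa using (b.sum_repr (w k)).symm
  have h2 : Tendsto (fun k => ∑ i, (b.coord i) (w k) • b i) atTop (𝓝 (∑ i, (0 : ℝ) • b i)) := by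
    refine tendsto_finsetSum _ (fun i _ => ?_)
    have hc : Tendsto (fun k => (b.coord i) (w k)) atTop (𝓝 0) := by
      have := hw (LinearMap.toContinuousLinearMap (b.coord i))
      simpa using this
    exact hc.smul_const (b i)
  have h3 : (fun k => ∑ i, (b.coord i) (w k) • b i) = w := by
    funext k; exact (h1 k).symm
  simpa [h3] using h2

/-! ### K7 -/

theorem not_finiteDimensional_of_weaklyNull {w : ℕ → X} (hw : WeaklyNull w) {κ : ℝ} (hκ : 0 < κ)
    (h : ∀ k, κ ≤ ‖w k‖) : ¬ FiniteDimensional ℝ X := by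
  intro hfd
  have h0 := hw.tendsto_of_finiteDimensional
  have h1 : Tendsto (fun k => ‖w k‖) atTop (𝓝 0) := by
    simpa using h0.norm
  have h2 : ∀ᶠ k in atTop, ‖w k‖ < κ := h1.eventually (gt_mem_nhds hκ)
  obtain ⟨k, hk⟩ := h2.exists
  exact absurd (h k) (not_le.mpr hk)

/-! ### K2 -/

theorem eventually_exists_mem_sub_lt {S : Submodule ℝ X} (hS : IsClosed (S : Set X))
    (hfd : FiniteDimensional ℝ (X ⧸ S)) {w : ℕ → X} (hw : WeaklyNull w) {ε : ℝ} (hε : 0 < ε) :
    ∀ᶠ k in atTop, ∃ y ∈ S, ‖w k - y‖ < ε := by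
  have : IsClosed (S : Set X) := hS
  have hq : WeaklyNull (fun k => S.mkQL (w k)) := hw.comp_clm S.mkQL
  have h0 := hq.tendsto_of_finiteDimensional
  have h1 : Tendsto (fun k => ‖S.mkQL (w k)‖) atTop (𝓝 0) := by
    simpa using h0.norm
  have h2 : ∀ᶠ k in atTop, ‖S.mkQL (w k)‖ < ε / 2 := h1.eventually (gt_mem_nhds (half_pos hε))
  filter_upwards [h2] with k hk
  obtain ⟨m, hm, hm'⟩ := Submodule.Quotient.norm_mk_lt (S.mkQL (w k)) (half_pos hε)
  refine ⟨w k - m, ?_, ?_⟩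
  · have : Submodule.Quotient.mk (w k) = (Submodule.Quotient.mk m : X ⧸ S) := by
      rw [hm]; simp
    exact (Submodule.Quotient.eq S).mp this
  · have : w k - (w k - m) = m := by abel
    rw [this]
    linarith

/-! ### basic facts about equivalent norms -/

namespace IsEquivNormOn

variable {N : X → ℝ} (hN : IsEquivNormOn N)
include hN

theorem add_le (x y : X) : N (x + y) ≤ N x + N y := hN.1 x y

theorem smul_eq (a : ℝ) (x : X) : N (a • x) = |a| * N x := hN.2.1 a x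

theorem neg_eq (x : X) : N (-x) = N x := by
  have := hN.smul_eq (-1) x
  simpa using this

theorem sub_le (x y : X) : N (x - y) ≤ N x + N y := by
  have := hN.add_le x (-y)
  rw [hN.neg_eq] at this
  simpa [sub_eq_add_neg] using this

theorem le_add_sub (x y : X) : N x ≤ N y + N (x - y) := by
  have := hN.add_le y (x - y)
  simpa using this

theorem nonneg (x : X) : 0 ≤ N x := by
  obtain ⟨a, b, ha, h⟩ := hN.2.2
  exact le_trans (mul_nonneg ha.le (norm_nonneg x)) (h x).1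

theorem smul_of_nonneg {a : ℝ} (ha : 0 ≤ a) (x : X) : N (a • x) = a * N x := by
  rw [hN.smul_eq, abs_of_nonneg ha]

end IsEquivNormOn

/-! ### K3: the sequential consequence of AUC -/

theorem auc_seq {N : X → ℝ} (hN : IsEquivNormOn N) (hA : IsAUCOn N) {t : ℝ} (ht : 0 < t) :
    ∃ c : ℝ, 0 < c ∧ ∀ x : X, N x = 1 → ∀ w : ℕ → X, WeaklyNull w →
      (∀ᶠ k in atTop, t ≤ N (w k)) → ∀ᶠ k in atTop, 1 + c ≤ N (x + w k) := by
  obtain ⟨c₀, hc₀, hAUC⟩ := hA (t / 2) (half_pos ht)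
  obtain ⟨a, b, ha, hab⟩ := hN.2.2
  refine ⟨c₀ / 2, half_pos hc₀, ?_⟩
  intro x hx w hw hwt
  obtain ⟨F, ⟨S, hSF, hFcl, hfd⟩, hF⟩ := hAUC x hx
  -- a positive bound for N in terms of the norm
  set b' : ℝ := max b 1 with hb'
  have hb'pos : 0 < b' := lt_of_lt_of_le one_pos (le_max_right _ _)
  have hNb : ∀ v : X, N v ≤ b' * ‖v‖ := fun v =>
    le_trans (hab v).2 (mul_le_mul_of_nonneg_right (le_max_left _ _) (norm_nonneg v))
  set ε : ℝ := min (c₀ / (2 * b')) (t / (2 * b')) with hε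
  have hεpos : 0 < ε := lt_min (by positivity) (by positivity)
  have hScl : IsClosed (S : Set X) := by rw [hSF]; exact hFcl
  have hev := eventually_exists_mem_sub_lt hScl hfd hw hεpos
  filter_upwards [hev, hwt] with k hk hkt
  obtain ⟨y, hyS, hy⟩ := hk
  -- N (w k - y) is small
  have hsmall1 : N (w k - y) ≤ c₀ / 2 := by
    calc N (w k - y) ≤ b' * ‖w k - y‖ := hNb _
      _ ≤ b' * (c₀ / (2 * b')) := by
          apply mul_le_mul_of_nonneg_left _ hb'pos.le
          exact le_trans hy.le (min_le_left _ _)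
      _ = c₀ / 2 := by field_simp
  have hsmall2 : N (w k - y) ≤ t / 2 := by
    calc N (w k - y) ≤ b' * ‖w k - y‖ := hNb _
      _ ≤ b' * (t / (2 * b')) := by
          apply mul_le_mul_of_nonneg_left _ hb'pos.le
          exact le_trans hy.le (min_le_right _ _)
      _ = t / 2 := by field_simp
  -- so τ := N y ≥ t / 2
  have hτ : t / 2 ≤ N y := by
    have := hN.le_add_sub (w k) y
    linarith
  have hτpos : 0 < N y := lt_of_lt_of_le (half_pos ht) hτ
  set τ : ℝ := N y with hτdef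
  -- normalised vector
  have hyF : (τ⁻¹ • y) ∈ F := by
    rw [← hSF]; exact S.smul_mem _ hyS
  have hNy1 : N (τ⁻¹ • y) = 1 := by
    rw [hN.smul_of_nonneg (inv_nonneg.mpr hτpos.le)]
    exact inv_mul_cancel₀ hτpos.ne'
  have hauc := hF _ hyF hNy1
  -- convexity
  set s : ℝ := (t / 2) / τ with hs
  have hspos : 0 < s := div_pos (half_pos ht) hτpos
  have hs1 : s ≤ 1 := by rw [hs, div_le_one hτpos]; exact hτ
  have hconv : x + (t / 2) • (τ⁻¹ • y) = (1 - s) • x + s • (x + y) := by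
    rw [smul_smul, smul_add, ← add_assoc, ← add_smul]
    have : (1 - s + s) = 1 := by ring
    rw [this, one_smul]
    congr 2
  have h1 : N (x + (t / 2) • (τ⁻¹ • y)) ≤ (1 - s) + s * N (x + y) := by
    rw [hconv]
    calc N ((1 - s) • x + s • (x + y)) ≤ N ((1 - s) • x) + N (s • (x + y)) := hN.add_le _ _
      _ = (1 - s) * N x + s * N (x + y) := by
          rw [hN.smul_of_nonneg (by linarith), hN.smul_of_nonneg hspos.le]
      _ = (1 - s) + s * N (x + y) := by rw [hx, mul_one]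
  have h2 : 1 + c₀ ≤ N (x + y) := by
    have h3 : c₀ ≤ s * (N (x + y) - 1) := by nlinarith
    have h4 : s * (N (x + y) - 1) ≤ N (x + y) - 1 := by
      have hnn : 0 ≤ N (x + y) - 1 := by
        by_contra hneg
        push Not at hneg
        have : s * (N (x + y) - 1) < 0 := mul_neg_of_pos_of_neg hspos hneg
        linarith
      nlinarith
    linarith
  -- back to w k
  have h5 : N (x + y) ≤ N (x + w k) + N (w k - y) := by
    have := hN.le_add_sub (x + y) (x + w k)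
    have e : x + y - (x + w k) = -(w k - y) := by abel
    rw [e, hN.neg_eq] at this
    exact this
  linarith

/-! ### K4: one-level criterion -/

theorem no_auc_of_bush {ι : Type*} [Nonempty ι] (z : ι → X) (hz : ∀ i, ‖z i‖ ≤ 1) {κ : ℝ}
    (hκ : 0 < κ)
    (h : ∀ i, ∃ j : ℕ → ι, WeaklyNull (fun k => z (j k) - z i) ∧ ∀ k, κ ≤ ‖z (j k) - z i‖)
    {N : X → ℝ} (hN : IsEquivNormOn N) : ¬ IsAUCOn N := by
  intro hA
  obtain ⟨a, b, ha, hab⟩ := hN.2.2
  have hNb : ∀ i, N (z i) ≤ b := fun i => by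
    have h1 := (hab (z i)).2
    have hb0 : 0 ≤ b := by
      by_contra hneg
      push Not at hneg
      obtain ⟨j, -, hj⟩ := h i
      have hpos : 0 < ‖z (j 0) - z i‖ := lt_of_lt_of_le hκ (hj 0)
      have h2 := (hab (z (j 0) - z i))
      have h3 : b * ‖z (j 0) - z i‖ < 0 := mul_neg_of_neg_of_pos hneg hpos
      have h4 : 0 < a * ‖z (j 0) - z i‖ := mul_pos ha hpos
      linarith [h2.1, h2.2]
    calc N (z i) ≤ b * ‖z i‖ := h1
      _ ≤ b * 1 := mul_le_mul_of_nonneg_left (hz i) hb0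
      _ = b := mul_one b
  have hbdd : BddAbove (Set.range fun i => N (z i)) := ⟨b, by rintro _ ⟨i, rfl⟩; exact hNb i⟩
  set R : ℝ := ⨆ i, N (z i) with hR
  have hle : ∀ i, N (z i) ≤ R := fun i => le_ciSup hbdd i
  -- R > 0
  have hRpos : 0 < R := by
    obtain ⟨i₀⟩ := ‹Nonempty ι›
    obtain ⟨j, -, hj⟩ := h i₀
    have hpos : 0 < ‖z (j 0) - z i₀‖ := lt_of_lt_of_le hκ (hj 0)
    have h1 : 0 < N (z (j 0) - z i₀) := lt_of_lt_of_le (mul_pos ha hpos) (hab _).1
    have h2 := hN.sub_le (z (j 0)) (z i₀)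
    have h3 := hle (j 0)
    have h4 := hle i₀
    linarith
  have hRb : R ≤ b := ciSup_le hNb
  set t : ℝ := a * κ / R with ht
  have htpos : 0 < t := div_pos (mul_pos ha hκ) hRpos
  obtain ⟨c, hc, hseq⟩ := auc_seq hN hA htpos
  -- near-maximiser
  have hlt : R / (1 + c) < R := by
    rw [div_lt_iff₀ (by linarith)]
    nlinarith
  obtain ⟨i, hi⟩ := exists_lt_of_lt_ciSup hlt
  have hNi : 0 < N (z i) := lt_trans (div_pos hRpos (by linarith)) hi
  obtain ⟨j, hjw, hjκ⟩ := h i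
  set ν : ℝ := N (z i) with hν
  have hx : N (ν⁻¹ • z i) = 1 := by
    rw [hN.smul_of_nonneg (inv_nonneg.mpr hNi.le)]
    exact inv_mul_cancel₀ hNi.ne'
  have hw : WeaklyNull (fun k => ν⁻¹ • (z (j k) - z i)) := hjw.smul _
  have hwt : ∀ᶠ k in atTop, t ≤ N (ν⁻¹ • (z (j k) - z i)) := by
    refine Eventually.of_forall (fun k => ?_)
    rw [hN.smul_of_nonneg (inv_nonneg.mpr hNi.le)]
    have h1 : a * κ ≤ N (z (j k) - z i) :=
      le_trans (mul_le_mul_of_nonneg_left (hjκ k) ha.le) (hab _).1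
    have h2 : ν ≤ R := hle i
    rw [ht, div_le_iff₀ hRpos]
    calc a * κ ≤ N (z (j k) - z i) := h1
      _ = ν⁻¹ * N (z (j k) - z i) * ν := by field_simp
      _ ≤ ν⁻¹ * N (z (j k) - z i) * R := by
          apply mul_le_mul_of_nonneg_left h2
          exact mul_nonneg (inv_nonneg.mpr hNi.le) (hN.nonneg _)
  obtain ⟨k, hk⟩ := (hseq _ hx _ hw hwt).exists
  have e : ν⁻¹ • z i + ν⁻¹ • (z (j k) - z i) = ν⁻¹ • z (j k) := by
    rw [← smul_add]; congr 1; abel
  rw [e, hN.smul_of_nonneg (inv_nonneg.mpr hNi.le)] at hk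
  have h3 : (1 + c) * ν ≤ N (z (j k)) := by
    have := mul_le_mul_of_nonneg_right hk hNi.le
    calc (1 + c) * ν ≤ ν⁻¹ * N (z (j k)) * ν := this
      _ = N (z (j k)) := by field_simp
  have h4 : R < (1 + c) * ν := by
    rw [div_lt_iff₀ (by linarith)] at hi
    linarith
  linarith [hle (j k)]

/-! ### K5: trees of every height -/

theorem no_auc_of_trees {κ : ℝ} (hκ : 0 < κ)
    (h : ∀ n : ℕ, ∃ T : ℕ → Set X, (∃ z ∈ T 0, κ ≤ ‖z‖) ∧ (∀ j ≤ n, ∀ z ∈ T j, ‖z‖ ≤ 1) ∧
      ∀ j < n, ∀ z ∈ T j, ∃ u : ℕ → X, (∀ k, u k ∈ T (j + 1)) ∧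
        WeaklyNull (fun k => u k - z) ∧ ∀ k, κ ≤ ‖u k - z‖)
    {N : X → ℝ} (hN : IsEquivNormOn N) : ¬ IsAUCOn N := by
  intro hA
  obtain ⟨a, b, ha, hab⟩ := hN.2.2
  -- b > 0
  have hbpos : 0 < b := by
    obtain ⟨T, ⟨z, -, hzκ⟩, -, -⟩ := h 0
    have hpos : 0 < ‖z‖ := lt_of_lt_of_le hκ hzκ
    have h1 := hab z
    have h2 : 0 < a * ‖z‖ := mul_pos ha hpos
    by_contra hneg
    push Not at hneg
    have h3 : b * ‖z‖ ≤ 0 := mul_nonpos_of_nonpos_of_nonneg hneg hpos.le
    linarith [h1.1, h1.2]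
  set t : ℝ := a * κ / b with ht
  have htpos : 0 < t := div_pos (mul_pos ha hκ) hbpos
  obtain ⟨c, hc, hseq⟩ := auc_seq hN hA htpos
  -- choose n with (1+c)^n * (a κ) > b
  obtain ⟨n, hn⟩ : ∃ n : ℕ, b / (a * κ) < (1 + c) ^ n :=
    pow_unbounded_of_one_lt _ (by linarith)
  obtain ⟨T, ⟨z₀, hz₀T, hz₀κ⟩, hT1, hTstep⟩ := h n
  have key : ∀ j ≤ n, ∃ z ∈ T j, (1 + c) ^ j * (a * κ) ≤ N z := by
    intro j
    induction j with
    | zero =>
      intro _
      refine ⟨z₀, hz₀T, ?_⟩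
      simp only [pow_zero, one_mul]
      exact le_trans (mul_le_mul_of_nonneg_left hz₀κ ha.le) (hab z₀).1
    | succ j ih =>
      intro hj
      obtain ⟨z, hzT, hzN⟩ := ih (Nat.le_of_succ_le hj)
      have hNz : 0 < N z := lt_of_lt_of_le (by positivity) hzN
      obtain ⟨u, huT, huw, huκ⟩ := hTstep j (Nat.lt_of_succ_le hj) z hzT
      set ν : ℝ := N z with hν
      have hνb : ν ≤ b := by
        calc ν ≤ b * ‖z‖ := (hab z).2
          _ ≤ b * 1 := mul_le_mul_of_nonneg_left (hT1 j (Nat.le_of_succ_le hj) z hzT) hbpos.le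
          _ = b := mul_one b
      have hx : N (ν⁻¹ • z) = 1 := by
        rw [hN.smul_of_nonneg (inv_nonneg.mpr hNz.le)]
        exact inv_mul_cancel₀ hNz.ne'
      have hw : WeaklyNull (fun k => ν⁻¹ • (u k - z)) := huw.smul _
      have hwt : ∀ᶠ k in atTop, t ≤ N (ν⁻¹ • (u k - z)) := by
        refine Eventually.of_forall (fun k => ?_)
        rw [hN.smul_of_nonneg (inv_nonneg.mpr hNz.le)]
        have h1 : a * κ ≤ N (u k - z) :=
          le_trans (mul_le_mul_of_nonneg_left (huκ k) ha.le) (hab _).1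
        rw [ht, div_le_iff₀ hbpos]
        calc a * κ ≤ N (u k - z) := h1
          _ = ν⁻¹ * N (u k - z) * ν := by field_simp
          _ ≤ ν⁻¹ * N (u k - z) * b := by
              apply mul_le_mul_of_nonneg_left hνb
              exact mul_nonneg (inv_nonneg.mpr hNz.le) (hN.nonneg _)
      obtain ⟨k, hk⟩ := (hseq _ hx _ hw hwt).exists
      have e : ν⁻¹ • z + ν⁻¹ • (u k - z) = ν⁻¹ • u k := by
        rw [← smul_add]; congr 1; abel
      rw [e, hN.smul_of_nonneg (inv_nonneg.mpr hNz.le)] at hk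
      have h3 : (1 + c) * ν ≤ N (u k) := by
        have := mul_le_mul_of_nonneg_right hk hNz.le
        calc (1 + c) * ν ≤ ν⁻¹ * N (u k) * ν := this
          _ = N (u k) := by field_simp
      refine ⟨u k, huT k, ?_⟩
      calc (1 + c) ^ (j + 1) * (a * κ) = (1 + c) * ((1 + c) ^ j * (a * κ)) := by ring
        _ ≤ (1 + c) * ν := mul_le_mul_of_nonneg_left hzN (by linarith)
        _ ≤ N (u k) := h3
  obtain ⟨z, hzT, hzN⟩ := key n le_rfl
  have hzb : N z ≤ b := by
    calc N z ≤ b * ‖z‖ := (hab z).2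
      _ ≤ b * 1 := mul_le_mul_of_nonneg_left (hT1 n le_rfl z hzT) hbpos.le
      _ = b := mul_one b
  have h5 : b < (1 + c) ^ n * (a * κ) := by
    rw [div_lt_iff₀ (mul_pos ha hκ)] at hn
    exact hn
  linarith

/-! ### K6: Bessel-type criterion for weak nullness -/

theorem weaklyNull_of_sign_sums {w : ℕ → X} {C : ℝ}
    (h : ∀ (A : Finset ℕ) (σ : ℕ → ℝ), (∀ k, σ k = 1 ∨ σ k = -1) →
      ‖∑ k ∈ A, σ k • w k‖ ^ 2 ≤ C * A.card) :
    WeaklyNull w := by
  intro φ
  rw [Metric.tendsto_atTop]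
  intro δ hδ
  -- the set of indices with |φ (w k)| ≥ δ is finite
  have hfin : {k : ℕ | δ ≤ |φ (w k)|}.Finite := by
    by_contra hinf
    have hinf' : {k : ℕ | δ ≤ |φ (w k)|}.Infinite := hinf
    -- choose M with M * δ^2 > ‖φ‖^2 * C
    obtain ⟨M, hM⟩ := exists_nat_gt (‖φ‖ ^ 2 * C / δ ^ 2)
    obtain ⟨A, hAsub, hAcard⟩ := hinf'.exists_subset_card_eq (M + 1)
    let σ : ℕ → ℝ := fun k => if 0 ≤ φ (w k) then 1 else -1
    have hσ : ∀ k, σ k = 1 ∨ σ k = -1 := by
      intro k; by_cases hk : 0 ≤ φ (w k) <;> simp [σ, hk]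
    have hσφ : ∀ k, σ k * φ (w k) = |φ (w k)| := by
      intro k
      by_cases hk : 0 ≤ φ (w k)
      · simp [σ, hk, abs_of_nonneg hk]
      · have hk' : φ (w k) < 0 := not_le.mp hk
        simp [σ, hk, abs_of_neg hk']
    have h1 := h A σ hσ
    have h2 : φ (∑ k ∈ A, σ k • w k) = ∑ k ∈ A, |φ (w k)| := by
      rw [map_sum]
      refine Finset.sum_congr rfl (fun k _ => ?_)
      rw [map_smul, smul_eq_mul, hσφ]
    have h3 : (A.card : ℝ) * δ ≤ ∑ k ∈ A, |φ (w k)| := by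
      have : ∑ _k ∈ A, δ ≤ ∑ k ∈ A, |φ (w k)| :=
        Finset.sum_le_sum (fun k hk => hAsub (Finset.mem_coe.mpr hk))
      simpa using this
    have h4 : ∑ k ∈ A, |φ (w k)| ≤ ‖φ‖ * ‖∑ k ∈ A, σ k • w k‖ := by
      rw [← h2]
      exact le_trans (le_abs_self _) (by simpa using φ.le_opNorm (∑ k ∈ A, σ k • w k))
    have hcard : (A.card : ℝ) = M + 1 := by rw [hAcard]; push_cast; ring
    have hcpos : (0 : ℝ) < A.card := by rw [hcard]; positivity
    -- square everything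
    have h5 : ((A.card : ℝ) * δ) ^ 2 ≤ ‖φ‖ ^ 2 * (C * A.card) := by
      have h6 : (A.card : ℝ) * δ ≤ ‖φ‖ * ‖∑ k ∈ A, σ k • w k‖ := le_trans h3 h4
      have h7 : 0 ≤ (A.card : ℝ) * δ := by positivity
      calc ((A.card : ℝ) * δ) ^ 2 ≤ (‖φ‖ * ‖∑ k ∈ A, σ k • w k‖) ^ 2 :=
            pow_le_pow_left₀ h7 h6 2
        _ = ‖φ‖ ^ 2 * ‖∑ k ∈ A, σ k • w k‖ ^ 2 := by ring
        _ ≤ ‖φ‖ ^ 2 * (C * A.card) := mul_le_mul_of_nonneg_left h1 (sq_nonneg _)
    have h8 : (A.card : ℝ) * δ ^ 2 ≤ ‖φ‖ ^ 2 * C := by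
      have : (A.card : ℝ) * ((A.card : ℝ) * δ ^ 2) ≤ (A.card : ℝ) * (‖φ‖ ^ 2 * C) := by
        nlinarith
      exact le_of_mul_le_mul_left this hcpos
    have h9 : ‖φ‖ ^ 2 * C / δ ^ 2 < (A.card : ℝ) := by
      rw [hcard]; linarith
    rw [div_lt_iff₀ (by positivity)] at h9
    linarith
  obtain ⟨K, hK⟩ := hfin.bddAbove
  refine ⟨K + 1, fun k hk => ?_⟩
  rw [Real.dist_eq, sub_zero]
  by_contra hcon
  push Not at hcon
  have : k ≤ K := hK hcon
  omega

end Crest.Agent.Helper30
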