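import Mathlib
import Crest.Prelude.Def_TreePotentials

/-!
Tree-test combinatorics core for row 125 (S0168 and the blocks of S0166), by helper30.

Everything is about functions `List ℕ → ℝ` and the Prelude notions
`pathPotential`, `IsTest`, `ExtraCondition` of `Def_TreePotentials`.

Main items:
* `SuffixClosed S`, `sclosure A` (finite suffix-closed hull), `anc S s` (deepest ancestor in `S`);
* `pathPotential_indicator` : potential of `S.indicator f` at `s` is the potential of `f` at `anc S s`;
* `gp S fx fy`, `gm S fx fy` : the two clipped "derivatives", with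
  `gp_eq_zero_of_mem`, `abs_gp_le`, `gp_sub_gm`, and the potential bounds;
* `isTest_of_sq_le` : a function dominated in squares by `c² fx² + σ² fy²` (`c² + σ² ≤ 1`) with
  potentials in `[-1,1]` is a test of the same model;
* packaged tests: `isTest_indicator`, `isTest_half_compl`, `isTest_half_gp`, `isTest_half_gm`,
  `isTest_fplus`, `isTest_fminus`, `isTest_single`.
-/

set_option autoImplicit false

namespace Crest.Agent.Helper30

open Crest.AnalysisR.TreePotential

/-! ### linearity of the potential -/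

theorem pathPotential_add (f g : List ℕ → ℝ) (s : List ℕ) :
    pathPotential (fun u => f u + g u) s = pathPotential f s + pathPotential g s := by
  induction s with
  | nil => simp [pathPotential]
  | cons a v ih => simp only [pathPotential, ih]; ring

theorem pathPotential_smul (c : ℝ) (f : List ℕ → ℝ) (s : List ℕ) :
    pathPotential (fun u => c * f u) s = c * pathPotential f s := by
  induction s with
  | nil => simp [pathPotential]
  | cons a v ih => simp only [pathPotential, ih]; ring

theorem pathPotential_sub (f g : List ℕ → ℝ) (s : List ℕ) :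
    pathPotential (fun u => f u - g u) s = pathPotential f s - pathPotential g s := by
  induction s with
  | nil => simp [pathPotential]
  | cons a v ih => simp only [pathPotential, ih]; ring

theorem pathPotential_lin (c σ : ℝ) (f g : List ℕ → ℝ) (s : List ℕ) :
    pathPotential (fun u => c * f u + σ * g u) s = c * pathPotential f s + σ * pathPotential g s := by
  induction s with
  | nil => simp [pathPotential]
  | cons a v ih => simp only [pathPotential, ih]; ring

/-- the "derivative" of a function on the tree: its potential is the function itself -/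
def tderiv (G : List ℕ → ℝ) : List ℕ → ℝ
  | [] => G []
  | a :: v => G (a :: v) - G v

theorem pathPotential_tderiv (G : List ℕ → ℝ) (s : List ℕ) :
    pathPotential (tderiv G) s = G s := by
  induction s with
  | nil => simp [pathPotential, tderiv]
  | cons a v ih => simp only [pathPotential, ih, tderiv]; ring

/-! ### suffix-closed sets and deepest ancestors -/

/-- `S` contains the root and is closed under passing to the parent (hence to all ancestors). -/
def SuffixClosed (S : Set (List ℕ)) : Prop := [] ∈ S ∧ ∀ a v, a :: v ∈ S → v ∈ S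

/-- finite suffix-closed hull of a finite set of vertices -/
def sclosure (A : Finset (List ℕ)) : Finset (List ℕ) :=
  insert [] (A.biUnion fun s => s.tails.toFinset)

theorem subset_sclosure (A : Finset (List ℕ)) : A ⊆ sclosure A := by
  intro s hs
  simp only [sclosure, Finset.mem_insert, Finset.mem_biUnion, List.mem_toFinset, List.mem_tails]
  exact Or.inr ⟨s, hs, List.suffix_refl s⟩

theorem suffixClosed_sclosure (A : Finset (List ℕ)) : SuffixClosed (sclosure A : Set (List ℕ)) := by
  refine ⟨by simp [sclosure], ?_⟩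
  intro a v h
  simp only [sclosure, Finset.coe_insert, Set.mem_insert_iff, Finset.mem_coe, Finset.mem_biUnion,
    List.mem_toFinset, List.mem_tails] at h ⊢
  rcases h with h | ⟨s, hs, hsuf⟩
  · exact absurd h (by simp)
  · exact Or.inr ⟨s, hs, (List.suffix_cons a v).trans hsuf⟩

open Classical in
/-- deepest ancestor-or-self of `s` lying in `S` (the root if none) -/
noncomputable def anc (S : Set (List ℕ)) : List ℕ → List ℕ
  | [] => []
  | a :: v => if a :: v ∈ S then a :: v else anc S v

theorem anc_nil (S : Set (List ℕ)) : anc S [] = [] := rfl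

theorem anc_cons_of_mem {S : Set (List ℕ)} {a : ℕ} {v : List ℕ} (h : a :: v ∈ S) :
    anc S (a :: v) = a :: v := by
  simp [anc, h]

theorem anc_cons_of_not_mem {S : Set (List ℕ)} {a : ℕ} {v : List ℕ} (h : a :: v ∉ S) :
    anc S (a :: v) = anc S v := by
  simp [anc, h]

theorem anc_of_mem {S : Set (List ℕ)} {s : List ℕ} (h : s ∈ S) : anc S s = s := by
  cases s with
  | nil => rfl
  | cons a v => exact anc_cons_of_mem h

theorem anc_mem {S : Set (List ℕ)} (hS : SuffixClosed S) (s : List ℕ) : anc S s ∈ S := by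
  induction s with
  | nil => exact hS.1
  | cons a v ih =>
    by_cases h : a :: v ∈ S
    · rw [anc_cons_of_mem h]; exact h
    · rw [anc_cons_of_not_mem h]; exact ih

theorem pathPotential_indicator {S : Set (List ℕ)} (hS : SuffixClosed S) (f : List ℕ → ℝ)
    (s : List ℕ) : pathPotential (S.indicator f) s = pathPotential f (anc S s) := by
  induction s with
  | nil => simp [pathPotential, anc, Set.indicator, hS.1]
  | cons a v ih =>
    by_cases h : a :: v ∈ S
    · have hv : v ∈ S := hS.2 a v h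
      rw [anc_cons_of_mem h]
      simp only [pathPotential, ih, anc_of_mem hv, Set.indicator_of_mem h]
    · rw [anc_cons_of_not_mem h]
      simp only [pathPotential, ih, Set.indicator_of_notMem h, add_zero]

/-! ### the clipped functions -/

/-- region-local potential of `fy` below `S` -/
noncomputable def Qloc (S : Set (List ℕ)) (fy : List ℕ → ℝ) (s : List ℕ) : ℝ :=
  pathPotential fy s - pathPotential fy (anc S s)

theorem Qloc_of_mem {S : Set (List ℕ)} (fy : List ℕ → ℝ) {s : List ℕ} (h : s ∈ S) :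
    Qloc S fy s = 0 := by
  simp [Qloc, anc_of_mem h]

theorem Qloc_cons_of_not_mem {S : Set (List ℕ)} (fy : List ℕ → ℝ) {a : ℕ} {v : List ℕ}
    (h : a :: v ∉ S) : Qloc S fy (a :: v) = Qloc S fy v + fy (a :: v) := by
  simp only [Qloc, anc_cons_of_not_mem h, pathPotential]; ring

theorem abs_Qloc_le {S : Set (List ℕ)} {fy : List ℕ → ℝ} (hy : ∀ s, |pathPotential fy s| ≤ 1)
    (s : List ℕ) : |Qloc S fy s| ≤ 2 := by
  have h1 := hy s
  have h2 := hy (anc S s)
  rw [abs_le] at h1 h2 ⊢
  simp only [Qloc]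
  constructor <;> linarith [h1.1, h1.2, h2.1, h2.2]

open Classical in
/-- potential of `gp` -/
noncomputable def Gp (S : Set (List ℕ)) (fx fy : List ℕ → ℝ) (s : List ℕ) : ℝ :=
  if 0 ≤ pathPotential fx (anc S s) then min (Qloc S fy s) 0 else max (Qloc S fy s) 0

open Classical in
/-- potential of `gm` -/
noncomputable def Gm (S : Set (List ℕ)) (fx fy : List ℕ → ℝ) (s : List ℕ) : ℝ :=
  if 0 ≤ pathPotential fx (anc S s) then -max (Qloc S fy s) 0 else -min (Qloc S fy s) 0

/-- the `+` clipped function -/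
noncomputable def gp (S : Set (List ℕ)) (fx fy : List ℕ → ℝ) : List ℕ → ℝ := tderiv (Gp S fx fy)

/-- the `-` clipped function -/
noncomputable def gm (S : Set (List ℕ)) (fx fy : List ℕ → ℝ) : List ℕ → ℝ := tderiv (Gm S fx fy)

theorem pathPotential_gp (S : Set (List ℕ)) (fx fy : List ℕ → ℝ) (s : List ℕ) :
    pathPotential (gp S fx fy) s = Gp S fx fy s := pathPotential_tderiv _ s

theorem pathPotential_gm (S : Set (List ℕ)) (fx fy : List ℕ → ℝ) (s : List ℕ) :
    pathPotential (gm S fx fy) s = Gm S fx fy s := pathPotential_tderiv _ s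

theorem Gp_of_mem {S : Set (List ℕ)} (fx fy : List ℕ → ℝ) {s : List ℕ} (h : s ∈ S) :
    Gp S fx fy s = 0 := by
  simp only [Gp, Qloc_of_mem fy h]; split_ifs <;> simp

theorem Gm_of_mem {S : Set (List ℕ)} (fx fy : List ℕ → ℝ) {s : List ℕ} (h : s ∈ S) :
    Gm S fx fy s = 0 := by
  simp only [Gm, Qloc_of_mem fy h]; split_ifs <;> simp

theorem gp_eq_zero_of_mem {S : Set (List ℕ)} (hS : SuffixClosed S) (fx fy : List ℕ → ℝ)
    {u : List ℕ} (h : u ∈ S) : gp S fx fy u = 0 := by
  cases u with
  | nil => simp [gp, tderiv, Gp_of_mem fx fy h]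
  | cons a v =>
    have hv : v ∈ S := hS.2 a v h
    simp [gp, tderiv, Gp_of_mem fx fy h, Gp_of_mem fx fy hv]

theorem gm_eq_zero_of_mem {S : Set (List ℕ)} (hS : SuffixClosed S) (fx fy : List ℕ → ℝ)
    {u : List ℕ} (h : u ∈ S) : gm S fx fy u = 0 := by
  cases u with
  | nil => simp [gm, tderiv, Gm_of_mem fx fy h]
  | cons a v =>
    have hv : v ∈ S := hS.2 a v h
    simp [gm, tderiv, Gm_of_mem fx fy h, Gm_of_mem fx fy hv]

theorem abs_min_zero_sub_le (p q : ℝ) : |min p 0 - min q 0| ≤ |p - q| := by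
  have := abs_min_sub_min_le_max p 0 q 0
  simpa using this

theorem abs_max_zero_sub_le (p q : ℝ) : |max p 0 - max q 0| ≤ |p - q| := by
  have := abs_max_sub_max_le_max p 0 q 0
  simpa using this

theorem abs_gp_le {S : Set (List ℕ)} (hS : SuffixClosed S) (fx fy : List ℕ → ℝ) (u : List ℕ) :
    |gp S fx fy u| ≤ |fy u| := by
  by_cases h : u ∈ S
  · rw [gp_eq_zero_of_mem hS fx fy h]; simp
  · cases u with
    | nil => exact absurd hS.1 h
    | cons a v =>
      have hq := Qloc_cons_of_not_mem fy h
      have ha := anc_cons_of_not_mem h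
      have e : fy (a :: v) = Qloc S fy (a :: v) - Qloc S fy v := by rw [hq]; ring
      simp only [gp, tderiv, Gp, ha]
      rw [e]
      split_ifs
      · exact abs_min_zero_sub_le _ _
      · exact abs_max_zero_sub_le _ _

theorem abs_gm_le {S : Set (List ℕ)} (hS : SuffixClosed S) (fx fy : List ℕ → ℝ) (u : List ℕ) :
    |gm S fx fy u| ≤ |fy u| := by
  by_cases h : u ∈ S
  · rw [gm_eq_zero_of_mem hS fx fy h]; simp
  · cases u with
    | nil => exact absurd hS.1 h
    | cons a v =>
      have hq := Qloc_cons_of_not_mem fy h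
      have ha := anc_cons_of_not_mem h
      have e : fy (a :: v) = Qloc S fy (a :: v) - Qloc S fy v := by rw [hq]; ring
      simp only [gm, tderiv, Gm, ha]
      rw [e]
      split_ifs
      · have := abs_max_zero_sub_le (Qloc S fy (a :: v)) (Qloc S fy v)
        rw [show -max (Qloc S fy (a :: v)) 0 - -max (Qloc S fy v) 0
          = -(max (Qloc S fy (a :: v)) 0 - max (Qloc S fy v) 0) by ring, abs_neg]
        exact this
      · have := abs_min_zero_sub_le (Qloc S fy (a :: v)) (Qloc S fy v)
        rw [show -min (Qloc S fy (a :: v)) 0 - -min (Qloc S fy v) 0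
          = -(min (Qloc S fy (a :: v)) 0 - min (Qloc S fy v) 0) by ring, abs_neg]
        exact this

theorem Gp_sub_Gm (S : Set (List ℕ)) (fx fy : List ℕ → ℝ) (s : List ℕ) :
    Gp S fx fy s - Gm S fx fy s = Qloc S fy s := by
  simp only [Gp, Gm]
  split_ifs <;> rcases le_total (Qloc S fy s) 0 with h | h <;> simp [h]

/-- `gp - gm` is `fy` off `S` and `0` on `S` -/
theorem gp_sub_gm {S : Set (List ℕ)} (hS : SuffixClosed S) (fx fy : List ℕ → ℝ) (u : List ℕ) :
    gp S fx fy u - gm S fx fy u = fy u - S.indicator fy u := by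
  by_cases h : u ∈ S
  · rw [gp_eq_zero_of_mem hS fx fy h, gm_eq_zero_of_mem hS fx fy h, Set.indicator_of_mem h]; ring
  · rw [Set.indicator_of_notMem h]
    cases u with
    | nil => exact absurd hS.1 h
    | cons a v =>
      have hq := Qloc_cons_of_not_mem fy h
      have h1 := Gp_sub_Gm S fx fy (a :: v)
      have h2 := Gp_sub_Gm S fx fy v
      simp only [gp, gm, tderiv]
      linarith

theorem Gp_bounds {S : Set (List ℕ)} {fx fy : List ℕ → ℝ} (hy : ∀ s, |pathPotential fy s| ≤ 1)
    (s : List ℕ) :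
    (0 ≤ pathPotential fx (anc S s) → -2 ≤ Gp S fx fy s ∧ Gp S fx fy s ≤ 0) ∧
    (pathPotential fx (anc S s) < 0 → 0 ≤ Gp S fx fy s ∧ Gp S fx fy s ≤ 2) := by
  have hq := abs_le.mp (abs_Qloc_le (S := S) hy s)
  constructor
  · intro h
    simp only [Gp, if_pos h]
    exact ⟨le_min hq.1 (by norm_num), min_le_right _ _⟩
  · intro h
    simp only [Gp, if_neg (not_le.mpr h)]
    exact ⟨le_max_right _ _, max_le hq.2 (by norm_num)⟩

theorem Gm_bounds {S : Set (List ℕ)} {fx fy : List ℕ → ℝ} (hy : ∀ s, |pathPotential fy s| ≤ 1)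
    (s : List ℕ) :
    (0 ≤ pathPotential fx (anc S s) → -2 ≤ Gm S fx fy s ∧ Gm S fx fy s ≤ 0) ∧
    (pathPotential fx (anc S s) < 0 → 0 ≤ Gm S fx fy s ∧ Gm S fx fy s ≤ 2) := by
  have hq := abs_le.mp (abs_Qloc_le (S := S) hy s)
  constructor
  · intro h
    simp only [Gm, if_pos h]
    constructor
    · have : max (Qloc S fy s) 0 ≤ 2 := max_le hq.2 (by norm_num)
      linarith
    · have : 0 ≤ max (Qloc S fy s) 0 := le_max_right _ _
      linarith
  · intro h
    simp only [Gm, if_neg (not_le.mpr h)]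
    constructor
    · have : min (Qloc S fy s) 0 ≤ 0 := min_le_right _ _
      linarith
    · have : -2 ≤ min (Qloc S fy s) 0 := le_min hq.1 (by norm_num)
      linarith

theorem abs_Gp_le {S : Set (List ℕ)} {fx fy : List ℕ → ℝ} (hy : ∀ s, |pathPotential fy s| ≤ 1)
    (s : List ℕ) : |Gp S fx fy s| ≤ 2 := by
  have h := Gp_bounds (S := S) (fx := fx) hy s
  rw [abs_le]
  rcases le_or_gt 0 (pathPotential fx (anc S s)) with h0 | h0
  · have := h.1 h0; constructor <;> linarith [this.1, this.2]
  · have := h.2 h0; constructor <;> linarith [this.1, this.2]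

theorem abs_Gm_le {S : Set (List ℕ)} {fx fy : List ℕ → ℝ} (hy : ∀ s, |pathPotential fy s| ≤ 1)
    (s : List ℕ) : |Gm S fx fy s| ≤ 2 := by
  have h := Gm_bounds (S := S) (fx := fx) hy s
  rw [abs_le]
  rcases le_or_gt 0 (pathPotential fx (anc S s)) with h0 | h0
  · have := h.1 h0; constructor <;> linarith [this.1, this.2]
  · have := h.2 h0; constructor <;> linarith [this.1, this.2]

/-- potential bound for the combined function `c · fx|_S + σ · g` when the potential `G` of `g`
has the sign pattern of `Gp`/`Gm` -/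
theorem abs_comb_le {p G c σ : ℝ} (hp : |p| ≤ 1) (hc0 : 0 ≤ c) (hc1 : c ≤ 1) (hσ0 : 0 ≤ σ)
    (hσ : σ ≤ 1 / 2) (h1 : 0 ≤ p → -2 ≤ G ∧ G ≤ 0) (h2 : p < 0 → 0 ≤ G ∧ G ≤ 2) :
    |c * p + σ * G| ≤ 1 := by
  rw [abs_le] at hp ⊢
  rcases le_or_gt 0 p with h0 | h0
  · obtain ⟨hG1, hG2⟩ := h1 h0
    constructor
    · nlinarith [mul_nonneg hc0 h0, mul_nonneg hσ0 (by linarith : (0:ℝ) ≤ G + 2)]
    · nlinarith [mul_nonneg hσ0 (by linarith : (0:ℝ) ≤ -G), mul_nonneg hc0 (by linarith : (0:ℝ) ≤ 1 - p),
        mul_nonneg (by linarith : (0:ℝ) ≤ 1 - c) (by linarith : (0:ℝ) ≤ 1)]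
  · obtain ⟨hG1, hG2⟩ := h2 h0
    constructor
    · nlinarith [mul_nonneg hσ0 hG1, mul_nonneg hc0 (by linarith : (0:ℝ) ≤ 1 + p),
        mul_nonneg (by linarith : (0:ℝ) ≤ 1 - c) (by linarith : (0:ℝ) ≤ 1)]
    · nlinarith [mul_nonneg hc0 (by linarith : (0:ℝ) ≤ -p), mul_nonneg hσ0 (by linarith : (0:ℝ) ≤ 2 - G)]

/-! ### the model-level principle -/

theorem isTest_of_sq_le (m : PotentialModel) {fx fy f' : List ℕ → ℝ} (hx : IsTest m fx)
    (hy : IsTest m fy) {c σ : ℝ} (hcσ : c ^ 2 + σ ^ 2 ≤ 1)
    (hpt : ∀ u, f' u ^ 2 ≤ c ^ 2 * fx u ^ 2 + σ ^ 2 * fy u ^ 2)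
    (hP : ∀ s, |pathPotential f' s| ≤ 1) : IsTest m f' := by
  refine ⟨hP, ?_⟩
  have hsum : ∀ (ι : Type) (A : Finset ι) (e : ι → List ℕ),
      ∑ i ∈ A, fx (e i) ^ 2 ≤ 1 → ∑ i ∈ A, fy (e i) ^ 2 ≤ 1 → ∑ i ∈ A, f' (e i) ^ 2 ≤ 1 := by
    intro ι A e h1 h2
    calc ∑ i ∈ A, f' (e i) ^ 2 ≤ ∑ i ∈ A, (c ^ 2 * fx (e i) ^ 2 + σ ^ 2 * fy (e i) ^ 2) :=
          Finset.sum_le_sum (fun i _ => hpt (e i))
      _ = c ^ 2 * ∑ i ∈ A, fx (e i) ^ 2 + σ ^ 2 * ∑ i ∈ A, fy (e i) ^ 2 := by
          rw [Finset.sum_add_distrib, Finset.mul_sum, Finset.mul_sum]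
      _ ≤ c ^ 2 * 1 + σ ^ 2 * 1 := by
          have := mul_le_mul_of_nonneg_left h1 (sq_nonneg c)
          have := mul_le_mul_of_nonneg_left h2 (sq_nonneg σ)
          linarith
      _ ≤ 1 := by linarith
  have hzero : ∀ u, fx u = 0 → fy u = 0 → f' u = 0 := by
    intro u h1 h2
    have := hpt u
    rw [h1, h2] at this
    have h3 : f' u ^ 2 ≤ 0 := by simpa using this
    exact pow_eq_zero_iff (two_ne_zero) |>.mp (le_antisymm h3 (sq_nonneg _))
  cases m with
  | rootlessSibling =>
    obtain ⟨hx0, hxs⟩ := hx.2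
    obtain ⟨hy0, hys⟩ := hy.2
    exact ⟨hzero [] hx0 hy0, fun r A => hsum ℕ A (fun n => n :: r) (hxs r A) (hys r A)⟩
  | rootedSibling =>
    have hxs := hx.2
    have hys := hy.2
    exact fun r A => hsum ℕ A (fun n => n :: r) (hxs r A) (hys r A)
  | antichain =>
    obtain ⟨hxf, hxs⟩ := hx.2
    obtain ⟨hyf, hys⟩ := hy.2
    refine ⟨?_, fun A hA => hsum (List ℕ) A id (hxs A hA) (hys A hA)⟩
    refine (hxf.union hyf).subset ?_
    intro u hu
    by_contra hcon
    simp only [Set.mem_union, Function.mem_support, not_or, not_not] at hcon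
    exact hu (hzero u hcon.1 hcon.2)
  | global =>
    have hxs := hx.2
    have hys := hy.2
    exact fun A => hsum (List ℕ) A id (hxs A) (hys A)

/-! ### packaged tests -/

variable {m : PotentialModel} {S : Set (List ℕ)}

theorem isTest_indicator (hS : SuffixClosed S) {f : List ℕ → ℝ} (hf : IsTest m f) :
    IsTest m (S.indicator f) := by
  refine isTest_of_sq_le m hf hf (c := 1) (σ := 0) (by norm_num) ?_ ?_
  · intro u
    by_cases h : u ∈ S
    · simp [Set.indicator_of_mem h]
    · simp [Set.indicator_of_notMem h]; positivity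
  · intro s
    rw [pathPotential_indicator hS]
    exact hf.1 _

theorem isTest_half_compl (hS : SuffixClosed S) {f : List ℕ → ℝ} (hf : IsTest m f) :
    IsTest m (fun u => (1 / 2 : ℝ) * (f u - S.indicator f u)) := by
  refine isTest_of_sq_le m hf hf (c := 1) (σ := 0) (by norm_num) ?_ ?_
  · intro u
    by_cases h : u ∈ S
    · simp [Set.indicator_of_mem h]; positivity
    · simp only [Set.indicator_of_notMem h, sub_zero]
      nlinarith [sq_nonneg (f u)]
  · intro s
    rw [pathPotential_smul, pathPotential_sub, pathPotential_indicator hS]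
    have h1 := abs_le.mp (hf.1 s)
    have h2 := abs_le.mp (hf.1 (anc S s))
    rw [abs_le]
    constructor <;> linarith [h1.1, h1.2, h2.1, h2.2]

theorem sq_gp_le (hS : SuffixClosed S) (fx fy : List ℕ → ℝ) (u : List ℕ) :
    gp S fx fy u ^ 2 ≤ fy u ^ 2 := sq_le_sq.mpr (abs_gp_le hS fx fy u)

theorem sq_gm_le (hS : SuffixClosed S) (fx fy : List ℕ → ℝ) (u : List ℕ) :
    gm S fx fy u ^ 2 ≤ fy u ^ 2 := sq_le_sq.mpr (abs_gm_le hS fx fy u)

theorem isTest_half_gp (hS : SuffixClosed S) (fx : List ℕ → ℝ) {fy : List ℕ → ℝ}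
    (hy : IsTest m fy) : IsTest m (fun u => (1 / 2 : ℝ) * gp S fx fy u) := by
  refine isTest_of_sq_le m hy hy (c := 1) (σ := 0) (by norm_num) ?_ ?_
  · intro u
    have h2 := sq_gp_le hS fx fy u
    nlinarith [sq_nonneg (gp S fx fy u)]
  · intro s
    rw [pathPotential_smul, pathPotential_gp]
    have h := abs_le.mp (abs_Gp_le (S := S) (fx := fx) hy.1 s)
    rw [abs_le]
    constructor <;> linarith [h.1, h.2]

theorem isTest_half_gm (hS : SuffixClosed S) (fx : List ℕ → ℝ) {fy : List ℕ → ℝ}
    (hy : IsTest m fy) : IsTest m (fun u => (1 / 2 : ℝ) * gm S fx fy u) := by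
  refine isTest_of_sq_le m hy hy (c := 1) (σ := 0) (by norm_num) ?_ ?_
  · intro u
    have h2 := sq_gm_le hS fx fy u
    nlinarith [sq_nonneg (gm S fx fy u)]
  · intro s
    rw [pathPotential_smul, pathPotential_gm]
    have h := abs_le.mp (abs_Gm_le (S := S) (fx := fx) hy.1 s)
    rw [abs_le]
    constructor <;> linarith [h.1, h.2]

/-- the `+` test: `c · fx|_S + σ · gp` -/
theorem isTest_fplus (hS : SuffixClosed S) {fx fy : List ℕ → ℝ} (hx : IsTest m fx)
    (hy : IsTest m fy) {c σ : ℝ} (hc0 : 0 ≤ c) (hσ0 : 0 ≤ σ) (hσ : σ ≤ 1 / 2)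
    (hcσ : c ^ 2 + σ ^ 2 ≤ 1) :
    IsTest m (fun u => c * S.indicator fx u + σ * gp S fx fy u) := by
  have hc1 : c ≤ 1 := by nlinarith [sq_nonneg σ]
  refine isTest_of_sq_le m hx hy hcσ ?_ ?_
  · intro u
    by_cases h : u ∈ S
    · rw [Set.indicator_of_mem h, gp_eq_zero_of_mem hS fx fy h]
      nlinarith [sq_nonneg (σ * fy u)]
    · rw [Set.indicator_of_notMem h]
      have h2 := sq_gp_le hS fx fy u
      nlinarith [sq_nonneg (c * fx u), mul_le_mul_of_nonneg_left h2 (sq_nonneg σ)]
  · intro s
    rw [pathPotential_lin, pathPotential_indicator hS, pathPotential_gp]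
    have hb := Gp_bounds (S := S) (fx := fx) hy.1 s
    exact abs_comb_le (hx.1 _) hc0 hc1 hσ0 hσ hb.1 hb.2

/-- the `-` test: `c · fx|_S + σ · gm` -/
theorem isTest_fminus (hS : SuffixClosed S) {fx fy : List ℕ → ℝ} (hx : IsTest m fx)
    (hy : IsTest m fy) {c σ : ℝ} (hc0 : 0 ≤ c) (hσ0 : 0 ≤ σ) (hσ : σ ≤ 1 / 2)
    (hcσ : c ^ 2 + σ ^ 2 ≤ 1) :
    IsTest m (fun u => c * S.indicator fx u + σ * gm S fx fy u) := by
  have hc1 : c ≤ 1 := by nlinarith [sq_nonneg σ]
  refine isTest_of_sq_le m hx hy hcσ ?_ ?_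
  · intro u
    by_cases h : u ∈ S
    · rw [Set.indicator_of_mem h, gm_eq_zero_of_mem hS fx fy h]
      nlinarith [sq_nonneg (σ * fy u)]
    · rw [Set.indicator_of_notMem h]
      have h2 := sq_gm_le hS fx fy u
      nlinarith [sq_nonneg (c * fx u), mul_le_mul_of_nonneg_left h2 (sq_nonneg σ)]
  · intro s
    rw [pathPotential_lin, pathPotential_indicator hS, pathPotential_gm]
    have hb := Gm_bounds (S := S) (fx := fx) hy.1 s
    exact abs_comb_le (hx.1 _) hc0 hc1 hσ0 hσ hb.1 hb.2

/-! ### single-vertex tests -/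

theorem pathPotential_single (s u : List ℕ) :
    pathPotential (Pi.single s (1 : ℝ)) u = if s <:+ u then 1 else 0 := by
  induction u with
  | nil =>
    by_cases h : s = []
    · subst h; simp [pathPotential]
    · have : ¬ s <:+ [] := by simpa using h
      simp [pathPotential, this, Pi.single_apply, Ne.symm h]
  | cons a v ih =>
    simp only [pathPotential, ih, List.suffix_cons_iff]
    by_cases h1 : s = a :: v
    · have h2 : ¬ s <:+ v := by
        intro hsv
        have := hsv.length_le
        rw [h1] at this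
        simp at this
      simp [h1, Pi.single_apply]
      intro hbad
      have := hbad.length_le
      simp at this
    · by_cases h2 : s <:+ v
      · simp [h1, h2, Pi.single_apply, Ne.symm h1]
      · simp [h1, h2, Pi.single_apply, Ne.symm h1]

theorem sum_sq_single_le (s : List ℕ) {ι : Type} (A : Finset ι) (e : ι → List ℕ)
    (he : Function.Injective e) :
    ∑ i ∈ A, ((Pi.single s (1 : ℝ) : List ℕ → ℝ) (e i)) ^ 2 ≤ 1 := by
  classical
  have h1 : ∀ i, ((Pi.single s (1 : ℝ) : List ℕ → ℝ) (e i)) ^ 2 = if e i = s then 1 else 0 := by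
    intro i
    by_cases h : e i = s
    · simp [h]
    · simp [Pi.single_apply, h]
  simp only [h1]
  rw [Finset.sum_ite]
  simp only [Finset.sum_const, Finset.sum_const_zero, add_zero, nsmul_eq_mul, mul_one]
  have hcard : (A.filter fun i => e i = s).card ≤ 1 := by
    rw [Finset.card_le_one]
    intro i hi j hj
    rw [Finset.mem_filter] at hi hj
    exact he (hi.2.trans hj.2.symm)
  exact_mod_cast hcard

theorem isTest_single (m : PotentialModel) (s : List ℕ)
    (hs : m = PotentialModel.rootlessSibling → s ≠ []) : IsTest m (Pi.single s (1 : ℝ)) := by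
  have hP : ∀ u, |pathPotential (Pi.single s (1 : ℝ)) u| ≤ 1 := by
    intro u
    rw [pathPotential_single]
    split_ifs <;> simp
  refine ⟨hP, ?_⟩
  cases m with
  | rootlessSibling =>
    refine ⟨?_, fun r A => sum_sq_single_le s A (fun n => n :: r) (fun a b h => by simpa using h)⟩
    have := hs rfl
    simp [Pi.single_apply, Ne.symm this]
  | rootedSibling =>
    exact fun r A => sum_sq_single_le s A (fun n => n :: r) (fun a b h => by simpa using h)
  | antichain =>
    refine ⟨?_, fun A _ => sum_sq_single_le s A id Function.injective_id⟩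
    refine (Set.finite_singleton s).subset ?_
    intro u hu
    simp only [Function.mem_support, ne_eq] at hu
    by_contra hne
    have hne' : u ≠ s := by simpa using hne
    exact hu (by simp [Pi.single_apply, hne'])
  | global =>
    exact fun A => sum_sq_single_le s A id Function.injective_id

end Crest.Agent.Helper30
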