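import Mathlib
import Crest.Prelude.Def_AsymptoticConvexity
import Crest.Agent.Helper30.AUCBasic

/-!
Row 125 shared library (helper30), part 2:

* more closure properties of `IsCofSet` (`IsCofSet.preimage`, `IsCofSet.inter`,
  `isCofSet_biInter`, `IsCofSet.smul_mem`, ...);
* the unnormalised midpoint inequality property `UMI` and its consequences for the
  Prelude moduli (`midpointGE_of_umi`, `maxMidpointGE_of_umi`).
-/

set_option autoImplicit false

open Filter Topology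

namespace Crest.Agent.Helper30

variable {X : Type*} [NormedAddCommGroup X] [NormedSpace ℝ X]

/-! ### closure properties of cof sets -/

theorem IsCofSet.smul_mem {F : Set X} (hF : IsCofSet X F) (a : ℝ) {y : X} (hy : y ∈ F) :
    a • y ∈ F := by
  obtain ⟨S, rfl, -, -⟩ := hF
  exact S.smul_mem a hy

theorem IsCofSet.add_mem {F : Set X} (hF : IsCofSet X F) {x y : X} (hx : x ∈ F) (hy : y ∈ F) :
    x + y ∈ F := by
  obtain ⟨S, rfl, -, -⟩ := hF
  exact S.add_mem hx hy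

theorem IsCofSet.zero_mem {F : Set X} (hF : IsCofSet X F) : (0 : X) ∈ F := by
  obtain ⟨S, rfl, -, -⟩ := hF
  exact S.zero_mem

theorem IsCofSet.neg_mem {F : Set X} (hF : IsCofSet X F) {y : X} (hy : y ∈ F) : -y ∈ F := by
  obtain ⟨S, rfl, -, -⟩ := hF
  exact S.neg_mem hy

theorem IsCofSet.preimage {Y : Type*} [NormedAddCommGroup Y] [NormedSpace ℝ Y] {F : Set Y}
    (hF : IsCofSet Y F) (L : X →L[ℝ] Y) : IsCofSet X (L ⁻¹' F) := by
  obtain ⟨S, rfl, hcl, hfd⟩ := hF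
  let g : X →ₗ[ℝ] (Y ⧸ S) := S.mkQ ∘ₗ (L : X →ₗ[ℝ] Y)
  refine ⟨LinearMap.ker g, ?_, hcl.preimage L.continuous, ?_⟩
  · ext x
    simp [g, Submodule.Quotient.mk_eq_zero]
  · exact (LinearMap.quotKerEquivRange g).symm.finiteDimensional

theorem IsCofSet.inter {F G : Set X} (hF : IsCofSet X F) (hG : IsCofSet X G) :
    IsCofSet X (F ∩ G) := by
  obtain ⟨S, rfl, hScl, hSfd⟩ := hF
  obtain ⟨T, rfl, hTcl, hTfd⟩ := hG
  let g : X →ₗ[ℝ] (X ⧸ S) × (X ⧸ T) := S.mkQ.prod T.mkQ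
  refine ⟨LinearMap.ker g, ?_, hScl.inter hTcl, ?_⟩
  · ext x
    simp [g, Submodule.Quotient.mk_eq_zero]
  · exact (LinearMap.quotKerEquivRange g).symm.finiteDimensional

theorem isCofSet_biInter {ι : Type*} (s : Finset ι) (F : ι → Set X)
    (h : ∀ i ∈ s, IsCofSet X (F i)) : IsCofSet X {y : X | ∀ i ∈ s, y ∈ F i} := by
  classical
  induction s using Finset.induction_on with
  | empty =>
    have : {y : X | ∀ i ∈ (∅ : Finset ι), y ∈ F i} = Set.univ := by ext; simp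
    rw [this]; exact isCofSet_univ
  | insert a s ha ih =>
    have h1 : IsCofSet X (F a) := h a (Finset.mem_insert_self a s)
    have h2 := ih (fun i hi => h i (Finset.mem_insert_of_mem hi))
    have : {y : X | ∀ i ∈ insert a s, y ∈ F i} = F a ∩ {y : X | ∀ i ∈ s, y ∈ F i} := by
      ext y; simp
    rw [this]; exact h1.inter h2

/-! ### the unnormalised midpoint inequality -/

variable (X) in
/-- Unnormalised midpoint inequality: for every `x` and `ε > 0` there is a closed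
finite-codimensional subspace on which
`‖x + y‖ + ‖x - y‖ ≥ 2 √(‖x‖² + ‖y‖²/4) - ε`. -/
def UMI : Prop :=
  ∀ x : X, ∀ ε : ℝ, 0 < ε → ∃ F : Set X, IsCofSet X F ∧
    ∀ y ∈ F, 2 * Real.sqrt (‖x‖ ^ 2 + ‖y‖ ^ 2 / 4) - ε ≤ ‖x + y‖ + ‖x - y‖

theorem umi_midpoint (h : UMI X) {t : ℝ} (ht : 0 < t) (x : X) (hx : ‖x‖ = 1) {η : ℝ}
    (hη : 0 < η) :
    ∃ F : Set X, IsCofSet X F ∧ ∀ y ∈ F, ‖y‖ = 1 →
      (Real.sqrt (1 + t ^ 2 / 4) - 1) - η ≤ (‖x + t • y‖ + ‖x - t • y‖) / 2 - 1 := by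
  obtain ⟨F, hF, hFy⟩ := h x (2 * η) (by linarith)
  refine ⟨F, hF, fun y hy hy1 => ?_⟩
  have h1 := hFy (t • y) (hF.smul_mem t hy)
  have h2 : ‖t • y‖ = t := by rw [norm_smul, hy1, mul_one, Real.norm_eq_abs, abs_of_pos ht]
  rw [h2, hx] at h1
  have h3 : (1 : ℝ) ^ 2 + t ^ 2 / 4 = 1 + t ^ 2 / 4 := by ring
  rw [h3] at h1
  linarith

open Crest.AnalysisR in
/-- `UMI` gives the averaged midpoint modulus bound `√(1+t²/4) - 1` (and anything below it). -/
theorem midpointGE_of_umi (E : RealBanach) (h : @UMI E.X E.normed E.space) {t c : ℝ} (ht : 0 < t)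
    (hc : c ≤ Real.sqrt (1 + t ^ 2 / 4) - 1) : E.MidpointModulusGE E.norm t c := by
  letI := E.normed
  letI := E.space
  intro x hx η hη
  obtain ⟨F, hF, hFy⟩ := umi_midpoint h ht x hx hη
  refine ⟨F, hF, fun y hy hy1 => ?_⟩
  have := hFy y hy hy1
  show c - η ≤ (‖x + t • y‖ + ‖x - t • y‖) / 2 - 1
  linarith

open Crest.AnalysisR in
/-- `UMI` gives the maximum-based midpoint modulus bound `√(1+t²/4) - 1`. -/
theorem maxMidpointGE_of_umi (E : RealBanach) (h : @UMI E.X E.normed E.space) {t c : ℝ}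
    (ht : 0 < t) (hc : c ≤ Real.sqrt (1 + t ^ 2 / 4) - 1) :
    E.MaxMidpointModulusGE E.norm t c := by
  letI := E.normed
  letI := E.space
  intro x hx η hη
  obtain ⟨F, hF, hFy⟩ := umi_midpoint h ht x hx hη
  refine ⟨F, hF, fun y hy hy1 => ?_⟩
  have h1 := hFy y hy hy1
  show c - η ≤ max ‖x + t • y‖ ‖x - t • y‖ - 1
  have h2 : (‖x + t • y‖ + ‖x - t • y‖) / 2 ≤ max ‖x + t • y‖ ‖x - t • y‖ := by
    have := le_max_left ‖x + t • y‖ ‖x - t • y‖
    have := le_max_right ‖x + t • y‖ ‖x - t • y‖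
    linarith
  linarith

/-- the two auxiliary comparisons of constants used in S0166 -/
theorem sqrt_twelve_le (t : ℝ) :
    Real.sqrt (1 + t ^ 2 / 12) - 1 ≤ Real.sqrt (1 + t ^ 2 / 4) - 1 := by
  have : Real.sqrt (1 + t ^ 2 / 12) ≤ Real.sqrt (1 + t ^ 2 / 4) :=
    Real.sqrt_le_sqrt (by nlinarith [sq_nonneg t])
  linarith

theorem half_sqrt_le (t : ℝ) :
    (Real.sqrt (1 + t ^ 2 / 4) - 1) / 2 ≤ Real.sqrt (1 + t ^ 2 / 4) - 1 := by
  have : (1 : ℝ) ≤ Real.sqrt (1 + t ^ 2 / 4) := by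
    rw [show (1 : ℝ) = Real.sqrt 1 by simp]
    exact Real.sqrt_le_sqrt (by nlinarith [sq_nonneg t])
  linarith

end Crest.Agent.Helper30
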